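import Vale.Agent.P356.Lift

namespace Vale.Agent.P356

open scoped ComplexConjugate ComplexOrder
open Matrix

set_option linter.unusedSectionVars false

variable {S : Type} [Fintype S] [DecidableEq S] {q : ℕ}

lemma glue_left (A : Finset S) (s : A → Fin q) (t : (Aᶜ : Finset S) → Fin q) :
    (fun x : A => glue A s t x) = s := by
  funext x
  simp [glue, x.2]

lemma glue_right (A : Finset S) (s : A → Fin q) (t : (Aᶜ : Finset S) → Fin q) :
    (fun x : (Aᶜ : Finset S) => glue A s t x) = t := by
  funext x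
  have : (x : S) ∉ A := Finset.mem_compl.1 x.2
  simp [glue, this]

lemma glue_res (A : Finset S) (σ : S → Fin q) :
    glue A (fun x => σ x) (fun x => σ x) = σ := by
  funext x
  by_cases h : x ∈ A <;> simp [glue, h]

/-- The decomposition of configurations across the cut. -/
def glueEquiv (A : Finset S) :
    (A → Fin q) × ((Aᶜ : Finset S) → Fin q) ≃ (S → Fin q) where
  toFun p := glue A p.1 p.2
  invFun σ := (fun x => σ x, fun x => σ x)
  left_inv p := by
    ext x
    · exact congrArg (fun f => (f x : ℕ)) (glue_left A p.1 p.2)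
    · exact congrArg (fun f => (f x : ℕ)) (glue_right A p.1 p.2)
  right_inv σ := glue_res A σ

lemma sum_conf (A : Finset S) (f : (S → Fin q) → ℂ) :
    ∑ σ, f σ = ∑ s : A → Fin q, ∑ t : (Aᶜ : Finset S) → Fin q, f (glue A s t) := by
  rw [← Fintype.sum_prod_type']
  exact (Fintype.sum_equiv (glueEquiv A) _ _ (fun _ => rfl)).symm

/-- The product vector `a ⊗ b` across the cut. -/
def prodVec (A : Finset S) (a : (A → Fin q) → ℂ) (b : ((Aᶜ : Finset S) → Fin q) → ℂ) :
    (S → Fin q) → ℂ :=
  fun σ => a (fun x => σ x) * b (fun x => σ x)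

lemma prodVec_glue (A : Finset S) (a : (A → Fin q) → ℂ) (b : ((Aᶜ : Finset S) → Fin q) → ℂ)
    (s : A → Fin q) (t : (Aᶜ : Finset S) → Fin q) : prodVec A a b (glue A s t) = a s * b t := by
  simp only [prodVec, glue_left, glue_right]

lemma mulVec_liftOp_prodVec_left (A : Finset S) (m : Matrix (A → Fin q) (A → Fin q) ℂ)
    (a : (A → Fin q) → ℂ) (b : ((Aᶜ : Finset S) → Fin q) → ℂ) :
    liftOp A m *ᵥ prodVec A a b = prodVec A (m *ᵥ a) b := by
  funext σ
  rw [mulVec_liftOp]
  simp only [prodVec, Matrix.mulVec, dotProduct, Finset.sum_mul]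
  refine Finset.sum_congr rfl fun w _ => ?_
  have h1 : (fun x : A => overwrite A w σ x) = w := overwrite_restrict A w σ
  have h2 : (fun x : (Aᶜ : Finset S) => overwrite A w σ x) = fun x : (Aᶜ : Finset S) => σ x := by
    funext x
    exact overwrite_of_not_mem A w σ (Finset.mem_compl.1 x.2)
  rw [h1, h2, mul_assoc]

lemma mulVec_liftOp_prodVec_right (A : Finset S)
    (m : Matrix ((Aᶜ : Finset S) → Fin q) ((Aᶜ : Finset S) → Fin q) ℂ)
    (a : (A → Fin q) → ℂ) (b : ((Aᶜ : Finset S) → Fin q) → ℂ) :
    liftOp Aᶜ m *ᵥ prodVec A a b = prodVec A a (m *ᵥ b) := by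
  funext σ
  rw [mulVec_liftOp]
  simp only [prodVec, Matrix.mulVec, dotProduct, Finset.mul_sum]
  refine Finset.sum_congr rfl fun w _ => ?_
  have h1 : (fun x : (Aᶜ : Finset S) => overwrite Aᶜ w σ x) = w := overwrite_restrict Aᶜ w σ
  have h2 : (fun x : A => overwrite Aᶜ w σ x) = fun x : A => σ x := by
    funext x
    exact overwrite_of_not_mem Aᶜ w σ (fun h => (Finset.mem_compl.1 h) x.2)
  rw [h1, h2]
  ring

lemma mulVec_liftOp_glue_left (A : Finset S) (m : Matrix (A → Fin q) (A → Fin q) ℂ)
    (Ω : (S → Fin q) → ℂ) (s : A → Fin q) (t : (Aᶜ : Finset S) → Fin q) :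
    (liftOp A m *ᵥ Ω) (glue A s t) = (m *ᵥ fun s' => Ω (glue A s' t)) s := by
  rw [mulVec_liftOp]
  simp only [glue_left, Matrix.mulVec, dotProduct]
  refine Finset.sum_congr rfl fun w _ => ?_
  have : overwrite A w (glue A s t) = glue A w t := by
    funext x
    by_cases hx : x ∈ A
    · simp [overwrite, glue, hx]
    · simp [overwrite, glue, hx]
  rw [this]

lemma mulVec_liftOp_glue_right (A : Finset S)
    (m : Matrix ((Aᶜ : Finset S) → Fin q) ((Aᶜ : Finset S) → Fin q) ℂ)
    (Ω : (S → Fin q) → ℂ) (s : A → Fin q) (t : (Aᶜ : Finset S) → Fin q) :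
    (liftOp Aᶜ m *ᵥ Ω) (glue A s t) = (m *ᵥ fun t' => Ω (glue A s t')) t := by
  rw [mulVec_liftOp]
  simp only [glue_right, Matrix.mulVec, dotProduct]
  refine Finset.sum_congr rfl fun w _ => ?_
  have : overwrite Aᶜ w (glue A s t) = glue A s w := by
    funext x
    by_cases hx : x ∈ A
    · have : x ∉ Aᶜ := fun h => (Finset.mem_compl.1 h) hx
      simp [overwrite, glue, hx, this]
    · have : x ∈ Aᶜ := Finset.mem_compl.2 hx
      simp [overwrite, glue, hx, this]
  rw [this]

/-- The matrix of amplitudes of `Ω` across the cut. -/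
def ampMatrix (Ω : (S → Fin q) → ℂ) (A : Finset S) :
    Matrix (A → Fin q) ((Aᶜ : Finset S) → Fin q) ℂ :=
  Matrix.of fun s t => Ω (glue A s t)

lemma reducedDensity_eq (Ω : (S → Fin q) → ℂ) (A : Finset S) :
    reducedDensity Ω A = ampMatrix Ω A * (ampMatrix Ω A)ᴴ := by
  ext s s'
  simp [reducedDensity, ampMatrix, Matrix.mul_apply, Matrix.conjTranspose_apply]

lemma reducedDensity_posSemidef (Ω : (S → Fin q) → ℂ) (A : Finset S) :
    (reducedDensity Ω A).PosSemidef := by
  rw [reducedDensity_eq]
  exact Matrix.posSemidef_self_mul_conjTranspose _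

lemma reducedDensity_trace (Ω : (S → Fin q) → ℂ) (A : Finset S) :
    (reducedDensity Ω A).trace = star Ω ⬝ᵥ Ω := by
  simp only [Matrix.trace, Matrix.diag, reducedDensity, Matrix.of_apply, dotProduct, Pi.star_apply]
  rw [sum_conf A (fun σ => star (Ω σ) * Ω σ)]
  refine Finset.sum_congr rfl fun s _ => Finset.sum_congr rfl fun t _ => ?_
  simp [mul_comm]

/-- Rank bound. If `Ω = G (a ⊗ b)` with `G` acting on `U`, the amplitude matrix of `Ω` across the cut
has rank at most `(q ^ |U ∩ A|)²`. -/
lemma rank_ampMatrix_le (U A : Finset S) (g : Matrix (U → Fin q) (U → Fin q) ℂ)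
    (a : (A → Fin q) → ℂ) (b : ((Aᶜ : Finset S) → Fin q) → ℂ) (Ω : (S → Fin q) → ℂ)
    (hΩ : Ω = liftOp U g *ᵥ prodVec A a b) :
    (ampMatrix Ω A).rank ≤ (q ^ (U ∩ A).card) ^ 2 := by
  classical
  -- the notation for the partial replacement
  let repA (s : A → Fin q) (v : (U ∩ A : Finset S) → Fin q) : A → Fin q :=
    fun x => if h : (x : S) ∈ U then v ⟨x, Finset.mem_inter.2 ⟨h, x.2⟩⟩ else s x
  let repB (t : (Aᶜ : Finset S) → Fin q) (w : U → Fin q) : (Aᶜ : Finset S) → Fin q :=
    fun x => if h : (x : S) ∈ U then w ⟨x, h⟩ else t x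
  let comb (v : (U ∩ A : Finset S) → Fin q) (t : (Aᶜ : Finset S) → Fin q) : U → Fin q :=
    fun x => if h : (x : S) ∈ A then v ⟨x, Finset.mem_inter.2 ⟨x.2, h⟩⟩
      else t ⟨x, Finset.mem_compl.2 h⟩
  let resW (s : A → Fin q) : (U ∩ A : Finset S) → Fin q :=
    fun x => s ⟨x, (Finset.mem_inter.1 x.2).2⟩
  let resW' (w : U → Fin q) : (U ∩ A : Finset S) → Fin q :=
    fun x => w ⟨x, (Finset.mem_inter.1 x.2).1⟩
  let I := ((U ∩ A : Finset S) → Fin q) × ((U ∩ A : Finset S) → Fin q)
  let F : Matrix (A → Fin q) I ℂ := Matrix.of fun s i =>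
    if resW s = i.1 then a (repA s i.2) else 0
  let G : Matrix I ((Aᶜ : Finset S) → Fin q) ℂ := Matrix.of fun i t =>
    ∑ w : U → Fin q, if resW' w = i.2 then g (comb i.1 t) w * b (repB t w) else 0
  have hfac : ampMatrix Ω A = F * G := by
    ext s t
    simp only [ampMatrix, Matrix.of_apply, Matrix.mul_apply, F, G]
    rw [hΩ, mulVec_liftOp, Fintype.sum_prod_type]
    rw [Finset.sum_eq_single (resW s)]
    · simp only [if_true]
      have : ∀ x : ((U ∩ A : Finset S) → Fin q),
          a (repA s x) * ∑ w : U → Fin q, (if resW' w = x then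
            g (comb (resW s) t) w * b (repB t w) else 0)
          = ∑ w : U → Fin q, (if resW' w = x then
            g (comb (resW s) t) w * (a (repA s (resW' w)) * b (repB t w)) else 0) := by
        intro x
        rw [Finset.mul_sum]
        refine Finset.sum_congr rfl fun w _ => ?_
        by_cases hw : resW' w = x
        · rw [if_pos hw, if_pos hw, hw]; ring
        · rw [if_neg hw, if_neg hw, mul_zero]
      simp only [this]
      rw [Finset.sum_comm]
      refine Finset.sum_congr rfl fun w _ => ?_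
      rw [Finset.sum_ite_eq]
      simp only [Finset.mem_univ, if_true]
      have h1 : (fun x : U => glue A s t x) = comb (resW s) t := by
        funext x
        by_cases hx : (x : S) ∈ A
        · simp [glue, comb, resW, hx]
        · simp [glue, comb, hx]
      have h2 : (fun x : A => overwrite U w (glue A s t) x) = repA s (resW' w) := by
        funext x
        by_cases hx : (x : S) ∈ U
        · simp [overwrite, repA, resW', hx]
        · simp [overwrite, repA, glue, hx, x.2]
      have h3 : (fun x : (Aᶜ : Finset S) => overwrite U w (glue A s t) x) = repB t w := by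
        funext x
        have hxA : (x : S) ∉ A := Finset.mem_compl.1 x.2
        by_cases hx : (x : S) ∈ U
        · simp [overwrite, repB, hx]
        · simp [overwrite, repB, glue, hx, hxA]
      simp only [prodVec, h1, h2, h3]
    · intro v _ hv
      refine Finset.sum_eq_zero fun v' _ => ?_
      rw [if_neg (fun h => hv h.symm), zero_mul]
    · intro h
      exact absurd (Finset.mem_univ _) h
  rw [hfac]
  calc (F * G).rank ≤ F.rank := Matrix.rank_mul_le_left F G
    _ ≤ Fintype.card I := Matrix.rank_le_card_width F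
    _ = (q ^ (U ∩ A).card) ^ 2 := by
      show Fintype.card (((U ∩ A : Finset S) → Fin q) × ((U ∩ A : Finset S) → Fin q)) = _
      rw [Fintype.card_prod, Fintype.card_fun, Fintype.card_fin, Fintype.card_coe, sq]

end Vale.Agent.P356
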