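import Mathlib

/-!
# Definitions for P356: entanglement entropy of lattice ground states.

Sites are indexed by a finite type `S`; the Hilbert space of the sites is the space of functions on
configurations `S → Fin q`, and operators are matrices indexed by configurations.
-/

namespace Vale.Agent.P356

open scoped ComplexConjugate ComplexOrder
open Matrix

/-- The box `Λ_L = {1,…,L}²`, here indexed from `0`. -/
abbrev Site (L : ℕ) := Fin L × Fin L

/-- The `ℓ¹` distance `|x - y|₁` on the box. -/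
def l1dist {L : ℕ} (x y : Site L) : ℕ :=
  ((x.1 : ℤ) - (y.1 : ℤ)).natAbs + ((x.2 : ℤ) - (y.2 : ℤ)).natAbs

variable {S : Type} [Fintype S] [DecidableEq S] {q : ℕ}

/-- `liftOp X m` is the operator on `⨂_{x ∈ S} ℂ^q` (a matrix indexed by configurations) which acts
as `m` on the tensor factors in `X` and as the identity on the other factors. -/
def liftOp (X : Finset S) (m : Matrix (X → Fin q) (X → Fin q) ℂ) :
    Matrix (S → Fin q) (S → Fin q) ℂ :=
  Matrix.of fun σ τ => if ∀ x, x ∉ X → σ x = τ x then m (fun x => σ x) (fun x => τ x) else 0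

/-- The configuration on `S` with part `s` on `A` and part `t` on the complement of `A`. -/
def glue (A : Finset S) (s : A → Fin q) (t : (Aᶜ : Finset S) → Fin q) : S → Fin q :=
  fun x => if h : x ∈ A then s ⟨x, h⟩ else t ⟨x, Finset.mem_compl.2 h⟩

/-- The reduced density matrix `ρ_A = Tr_{S ∖ A} |Ω⟩⟨Ω|`, with matrix elements
`(ρ_A)_{s,s'} = ∑_t Ω(s,t) conj(Ω(s',t))`. -/
def reducedDensity (Ω : (S → Fin q) → ℂ) (A : Finset S) : Matrix (A → Fin q) (A → Fin q) ℂ :=
  Matrix.of fun s s' => ∑ t : (Aᶜ : Finset S) → Fin q, Ω (glue A s t) * conj (Ω (glue A s' t))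

lemma reducedDensity_isHermitian (Ω : (S → Fin q) → ℂ) (A : Finset S) :
    (reducedDensity Ω A).IsHermitian := by
  ext s s'
  simp [reducedDensity, Matrix.conjTranspose_apply, mul_comm]

/-- The entanglement entropy `S_Ω(A) = -Tr ρ_A log ρ_A` (natural logarithm, `0 log 0 = 0`): the sum
of `-λ log λ` over the eigenvalues `λ` of `ρ_A`, counted with multiplicity. -/
noncomputable def entanglementEntropy (Ω : (S → Fin q) → ℂ) (A : Finset S) : ℝ :=
  ∑ i, Real.negMulLog ((reducedDensity_isHermitian Ω A).eigenvalues i)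

/-- The Hamiltonian `H` has spectral gap at least `Δ`, with ground energy `E₀` and ground state `Ω`:
`Ω` is a unit eigenvector of `H` for `E₀` and `H - E₀ I ≥ Δ (I - |Ω⟩⟨Ω|)`. For `Δ > 0` this says
that `E₀` is the lowest eigenvalue of `H`, that it is simple and that the gap is at least `Δ`. -/
structure HasSpectralGap {ι : Type} [Fintype ι] [DecidableEq ι]
    (H : Matrix ι ι ℂ) (Δ E₀ : ℝ) (Ω : ι → ℂ) : Prop where
  unit : star Ω ⬝ᵥ Ω = 1
  eigen : H *ᵥ Ω = (E₀ : ℂ) • Ω
  gap : (H - (E₀ : ℂ) • (1 : Matrix ι ι ℂ) -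
    (Δ : ℂ) • ((1 : Matrix ι ι ℂ) - Matrix.vecMulVec Ω (star Ω))).PosSemidef

/-- The index set of the Hamiltonian: the nonempty subsets of the box of `ℓ¹` diameter at most `R`.-/
def allowedSets (L R : ℕ) : Finset (Finset (Site L)) :=
  Finset.univ.filter fun X => X.Nonempty ∧ ∀ x ∈ X, ∀ y ∈ X, l1dist x y ≤ R

/-- A family of local terms: for each `X`, the term `h X` is Hermitian and acts on the tensor factors
in `X` and as the identity elsewhere. -/
structure IsLocalFamily {L : ℕ} (h : Finset (Site L) → Matrix (Site L → Fin q) (Site L → Fin q) ℂ) :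
    Prop where
  herm : ∀ X, (h X).IsHermitian
  isLocal : ∀ X, ∃ m, h X = liftOp X m

/-- The Hamiltonian `H = ∑_X h_X`, the sum over nonempty `X` of `ℓ¹` diameter at most `R`. -/
def hamiltonian {L : ℕ} (R : ℕ)
    (h : Finset (Site L) → Matrix (Site L → Fin q) (Site L → Fin q) ℂ) :
    Matrix (Site L → Fin q) (Site L → Fin q) ℂ :=
  ∑ X ∈ allowedSets L R, h X

/-- The edge boundary `∂A`: pairs `(x, y)` with `x ∈ A`, `y ∉ A` and `|x - y|₁ = 1`. -/
def edgeBoundary {L : ℕ} (A : Finset (Site L)) : Finset (Site L × Site L) :=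
  Finset.univ.filter fun p => p.1 ∈ A ∧ p.2 ∉ A ∧ l1dist p.1 p.2 = 1

/-- The set `X` crosses the cut `A | Aᶜ`: it meets both `A` and its complement. -/
def Crosses {L : ℕ} (X A : Finset (Site L)) : Prop :=
  (∃ x ∈ X, x ∈ A) ∧ (∃ y ∈ X, y ∉ A)

end Vale.Agent.P356
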