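import Vale.Agent.P356.Defs

namespace Vale.Agent.P356

variable {L : ℕ}

/-- Walking from `y ∉ A` towards `z ∈ A` one meets a boundary edge `(u, v)` with `u` not farther from
`z` than `y`. -/
lemma exists_edge (A : Finset (Site L)) (z : Site L) (hz : z ∈ A) :
    ∀ (d : ℕ) (y : Site L), y ∉ A → l1dist z y = d →
      ∃ u v : Site L, u ∈ A ∧ v ∉ A ∧ l1dist u v = 1 ∧ l1dist z u ≤ d := by
  intro d
  induction d with
  | zero =>
    intro y hy hd
    exfalso
    apply hy
    have : z = y := by
      simp only [l1dist] at hd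
      ext <;> omega
    rwa [← this]
  | succ d ih =>
    intro y hy hd
    -- a neighbour `y'` of `y` with distance `d` from `z`
    have key : ∃ y' : Site L, l1dist z y' = d ∧ l1dist y' y = 1 := by
      simp only [l1dist] at hd
      by_cases h1 : (y.1 : ℕ) < z.1
      · refine ⟨(⟨y.1 + 1, by omega⟩, y.2), ?_, ?_⟩ <;> simp only [l1dist] <;> push_cast <;> omega
      · by_cases h2 : (z.1 : ℕ) < y.1
        · refine ⟨(⟨y.1 - 1, by omega⟩, y.2), ?_, ?_⟩ <;> simp only [l1dist]
          · rw [Nat.cast_sub (by omega)]; push_cast; omega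
          · rw [Nat.cast_sub (by omega)]; push_cast; omega
        · by_cases h3 : (y.2 : ℕ) < z.2
          · refine ⟨(y.1, ⟨y.2 + 1, by omega⟩), ?_, ?_⟩ <;> simp only [l1dist] <;> push_cast <;>
              omega
          · have h4 : (z.2 : ℕ) < y.2 := by omega
            refine ⟨(y.1, ⟨y.2 - 1, by omega⟩), ?_, ?_⟩ <;> simp only [l1dist]
            · rw [Nat.cast_sub (by omega)]; push_cast; omega
            · rw [Nat.cast_sub (by omega)]; push_cast; omega
    obtain ⟨y', hy'z, hy'y⟩ := key
    by_cases hy'A : y' ∈ A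
    · exact ⟨y', y, hy'A, hy, hy'y, by omega⟩
    · obtain ⟨u, v, hu, hv, huv, hzu⟩ := ih y' hy'A hy'z
      exact ⟨u, v, hu, hv, huv, by omega⟩

/-- The `ℓ¹` ball of radius `R` has at most `(2R+1)²` points. -/
lemma card_ball_le (u : Site L) (R : ℕ) :
    (Finset.univ.filter fun z : Site L => l1dist z u ≤ R).card ≤ (2 * R + 1) ^ 2 := by
  have : (Finset.univ.filter fun z : Site L => l1dist z u ≤ R).card ≤
      (Finset.range (2 * R + 1) ×ˢ Finset.range (2 * R + 1)).card := by
    refine Finset.card_le_card_of_injOn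
      (fun z => ((z.1 : ℕ) + R - u.1, (z.2 : ℕ) + R - u.2)) ?_ ?_
    · intro z hz
      have hz' : l1dist z u ≤ R := (Finset.mem_filter.1 (Finset.mem_coe.1 hz)).2
      simp only [l1dist] at hz'
      refine Finset.mem_coe.2 (Finset.mem_product.2 ⟨Finset.mem_range.2 ?_, Finset.mem_range.2 ?_⟩)
      · show (z.1 : ℕ) + R - u.1 < 2 * R + 1
        omega
      · show (z.2 : ℕ) + R - u.2 < 2 * R + 1
        omega
    · intro z hz w hw hzw
      have hz' : l1dist z u ≤ R := (Finset.mem_filter.1 (Finset.mem_coe.1 hz)).2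
      have hw' : l1dist w u ≤ R := (Finset.mem_filter.1 (Finset.mem_coe.1 hw)).2
      simp only [l1dist] at hz' hw'
      simp only [Prod.mk.injEq] at hzw
      ext <;> omega
  simpa [sq] using this

/-- The sites of `A` lying in sets of diameter at most `R` that cross the cut are within distance `R`
of a boundary edge; so there are at most `(2R+1)² |∂A|` of them. -/
lemma card_crossing_le (A : Finset (Site L)) (R : ℕ) (W : Finset (Site L))
    (hW : ∀ z ∈ W, z ∈ A ∧ ∃ y, y ∉ A ∧ l1dist z y ≤ R) :
    W.card ≤ (2 * R + 1) ^ 2 * (edgeBoundary A).card := by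
  classical
  have hsub : W ⊆ (edgeBoundary A).biUnion
      fun e => Finset.univ.filter fun z : Site L => l1dist z e.1 ≤ R := by
    intro z hz
    obtain ⟨hzA, y, hy, hzy⟩ := hW z hz
    obtain ⟨u, v, hu, hv, huv, hzu⟩ := exists_edge A z hzA _ y hy rfl
    refine Finset.mem_biUnion.2 ⟨(u, v), ?_, ?_⟩
    · simp [edgeBoundary, hu, hv, huv]
    · simp only [Finset.mem_filter, Finset.mem_univ, true_and]
      omega
  calc W.card ≤ _ := Finset.card_le_card hsub
    _ ≤ ∑ e ∈ edgeBoundary A, (Finset.univ.filter fun z : Site L => l1dist z e.1 ≤ R).card :=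
        Finset.card_biUnion_le
    _ ≤ ∑ _e ∈ edgeBoundary A, (2 * R + 1) ^ 2 :=
        Finset.sum_le_sum fun e _ => card_ball_le e.1 R
    _ = (2 * R + 1) ^ 2 * (edgeBoundary A).card := by
        rw [Finset.sum_const, smul_eq_mul, mul_comm]

end Vale.Agent.P356
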