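import Vale.Agent.P356.Main
import Vale.Agent.P356.Lattice

namespace Vale.Agent.P356

open scoped ComplexConjugate ComplexOrder
open Matrix Polynomial

set_option linter.unusedSectionVars false

variable {S : Type} [Fintype S] [DecidableEq S] {q : ℕ}

/-- A sum of terms, each acting on a subset of `U`, acts on `U`. -/
lemma exists_liftOp_sum {ι : Type} (T : Finset ι) (U : Finset S)
    (h : ι → Matrix (S → Fin q) (S → Fin q) ℂ) (X : ι → Finset S)
    (hX : ∀ i ∈ T, X i ⊆ U) (hloc : ∀ i ∈ T, ∃ m, h i = liftOp (X i) m) :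
    ∃ d, ∑ i ∈ T, h i = liftOp U d := by
  classical
  induction T using Finset.induction_on with
  | empty => exact ⟨0, by rw [Finset.sum_empty, liftOp_zero]⟩
  | insert i T hi ih =>
    obtain ⟨d, hd⟩ := ih (fun j hj => hX j (Finset.mem_insert_of_mem hj))
      (fun j hj => hloc j (Finset.mem_insert_of_mem hj))
    obtain ⟨m, hm⟩ := hloc i (Finset.mem_insert_self i T)
    obtain ⟨n, hn⟩ := exists_liftOp_of_subset (hX i (Finset.mem_insert_self i T)) m
    exact ⟨n + d, by rw [Finset.sum_insert hi, hd, hm, hn, liftOp_add]⟩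

lemma commute_sum_sum {ι κ n : Type} [Fintype n] [DecidableEq n] (T : Finset ι) (T' : Finset κ)
    (a : ι → Matrix n n ℂ) (b : κ → Matrix n n ℂ)
    (h : ∀ i ∈ T, ∀ j ∈ T', Commute (a i) (b j)) :
    Commute (∑ i ∈ T, a i) (∑ j ∈ T', b j) :=
  Commute.sum_left _ _ _ fun i hi => Commute.sum_right _ _ _ fun j hj => h i hi j hj

/-- The exact area law when the crossing terms commute with the others. -/
theorem entropy_le_of_commuting {L R : ℕ} (hq : 2 ≤ q)
    (h : Finset (Site L) → Matrix (Site L → Fin q) (Site L → Fin q) ℂ) (hloc : IsLocalFamily h)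
    {Δ E₀ : ℝ} (hΔ : 0 < Δ) {Ω : (Site L → Fin q) → ℂ}
    (hgap : HasSpectralGap (hamiltonian R h) Δ E₀ Ω) (A : Finset (Site L))
    (hcomm : ∀ X ∈ allowedSets L R, ∀ Y ∈ allowedSets L R,
      Crosses X A → ¬ Crosses Y A → Commute (h X) (h Y)) :
    entanglementEntropy Ω A ≤
      2 * (2 * (R : ℝ) + 1) ^ 2 * Real.log q * ((edgeBoundary A).card : ℝ) := by
  classical
  -- the decomposition of the index set
  set T := allowedSets L R with hT
  set Tc := T.filter fun X => Crosses X A with hTc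
  set Tn := T.filter fun X => ¬ Crosses X A with hTn
  set TA := Tn.filter fun X => X ⊆ A with hTA
  set TB := Tn.filter fun X => ¬ X ⊆ A with hTB
  set U : Finset (Site L) := Tc.biUnion id with hU
  obtain ⟨d, hd⟩ := exists_liftOp_sum (U := U) Tc h id
    (fun X hX => Finset.subset_biUnion_of_mem id hX) (fun X _ => hloc.isLocal X)
  obtain ⟨pa, hpa⟩ := exists_liftOp_sum (U := A) TA h id
    (fun X hX => (Finset.mem_filter.1 hX).2) (fun X _ => hloc.isLocal X)
  obtain ⟨pb, hpb⟩ := exists_liftOp_sum (U := Aᶜ) TB h id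
    (fun X hX => by
      have h1 := Finset.mem_filter.1 hX
      have h2 := Finset.mem_filter.1 h1.1
      intro x hx
      rw [Finset.mem_compl]
      intro hxA
      apply h1.2
      intro y hy
      by_contra hyA
      exact h2.2 ⟨⟨x, hx, hxA⟩, ⟨y, hy, hyA⟩⟩)
    (fun X _ => hloc.isLocal X)
  have hHam : hamiltonian R h = liftOp U d + liftOp A pa + liftOp Aᶜ pb := by
    rw [← hd, ← hpa, ← hpb, hamiltonian, add_assoc, hTA, hTB,
      Finset.sum_filter_add_sum_filter_not, hTc, hTn, Finset.sum_filter_add_sum_filter_not]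
  have hDh : (liftOp U d).IsHermitian := by
    rw [← hd]
    refine Finset.sum_induction _ Matrix.IsHermitian (fun _ _ h1 h2 => h1.add h2)
      Matrix.isHermitian_zero fun X _ => hloc.herm X
  have hDA : Commute (liftOp U d) (liftOp A pa) := by
    rw [← hd, ← hpa]
    refine commute_sum_sum _ _ _ _ fun X hX Y hY => ?_
    have hX' := Finset.mem_filter.1 hX
    have hY' := Finset.mem_filter.1 (Finset.mem_filter.1 hY).1
    exact hcomm X hX'.1 Y hY'.1 hX'.2 hY'.2
  have hDB : Commute (liftOp U d) (liftOp Aᶜ pb) := by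
    rw [← hd, ← hpb]
    refine commute_sum_sum _ _ _ _ fun X hX Y hY => ?_
    have hX' := Finset.mem_filter.1 hX
    have hY' := Finset.mem_filter.1 (Finset.mem_filter.1 hY).1
    exact hcomm X hX'.1 Y hY'.1 hX'.2 hY'.2
  have hΩ : Ω ≠ 0 := by
    rintro rfl
    have := hgap.unit
    simp at this
  have hrank := rank_bound_of_decomposition A U d pa pb hDh hDA hDB Ω hΩ (E₀ : ℂ)
    (by rw [← hHam]; exact hgap.eigen)
    (by
      rw [← hHam]
      exact fun ψ hψ => ⟨_, eq_smul_of_hasSpectralGap hgap hΔ ψ hψ⟩)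
  -- the entropy bound
  have hρ := reducedDensity_posSemidef Ω A
  have htr : (reducedDensity Ω A).trace = 1 := by rw [reducedDensity_trace, hgap.unit]
  have hS : entanglementEntropy Ω A ≤ Real.log ((reducedDensity Ω A).rank : ℝ) :=
    sum_negMulLog_le_log_rank hρ htr
  have hrank2 : (reducedDensity Ω A).rank ≤ (q ^ (U ∩ A).card) ^ 2 := by
    rw [reducedDensity_eq]
    exact (Matrix.rank_mul_le_left _ _).trans hrank
  have hqpos : (0 : ℝ) < q := by
    have : 0 < q := by omega
    exact_mod_cast this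
  have hlogq : 0 ≤ Real.log q := Real.log_natCast_nonneg q
  have hlog : Real.log ((reducedDensity Ω A).rank : ℝ) ≤ 2 * (U ∩ A).card * Real.log q := by
    rcases Nat.eq_zero_or_pos (reducedDensity Ω A).rank with h0 | hpos
    · rw [h0]
      simp only [Nat.cast_zero, Real.log_zero]
      positivity
    · have h1 : ((reducedDensity Ω A).rank : ℝ) ≤ ((q : ℝ) ^ (U ∩ A).card) ^ 2 := by
        exact_mod_cast hrank2
      calc Real.log ((reducedDensity Ω A).rank : ℝ)
          ≤ Real.log (((q : ℝ) ^ (U ∩ A).card) ^ 2) :=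
            Real.log_le_log (by exact_mod_cast hpos) h1
        _ = 2 * (U ∩ A).card * Real.log q := by
            rw [Real.log_pow, Real.log_pow]
            push_cast
            ring
  -- the combinatorics
  have hW : (U ∩ A).card ≤ (2 * R + 1) ^ 2 * (edgeBoundary A).card := by
    refine card_crossing_le A R (U ∩ A) fun z hz => ?_
    obtain ⟨hzU, hzA⟩ := Finset.mem_inter.1 hz
    refine ⟨hzA, ?_⟩
    obtain ⟨X, hX, hzX⟩ := Finset.mem_biUnion.1 hzU
    have hX' := Finset.mem_filter.1 hX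
    obtain ⟨y, hyX, hyA⟩ := hX'.2.2
    have hdiam := (Finset.mem_filter.1 hX'.1).2.2
    exact ⟨y, hyA, hdiam z hzX y hyX⟩
  have hW' : ((U ∩ A).card : ℝ) ≤ (2 * (R : ℝ) + 1) ^ 2 * ((edgeBoundary A).card : ℝ) := by
    exact_mod_cast hW
  calc entanglementEntropy Ω A ≤ 2 * (U ∩ A).card * Real.log q := hS.trans hlog
    _ ≤ 2 * ((2 * (R : ℝ) + 1) ^ 2 * ((edgeBoundary A).card : ℝ)) * Real.log q := by
        have : 2 * ((U ∩ A).card : ℝ) ≤ 2 * ((2 * (R : ℝ) + 1) ^ 2 * ((edgeBoundary A).card : ℝ)) := by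
          linarith
        exact mul_le_mul_of_nonneg_right this hlogq
    _ = 2 * (2 * (R : ℝ) + 1) ^ 2 * Real.log q * ((edgeBoundary A).card : ℝ) := by ring

end Vale.Agent.P356
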