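import Vale.Agent.P356.Defs

namespace Vale.Agent.P356

open scoped ComplexConjugate ComplexOrder
open Matrix

set_option linter.unusedSectionVars false

variable {S : Type} [Fintype S] [DecidableEq S] {q : ℕ}

/-- Replace the values of `σ` on `X` by `w`. -/
def overwrite (X : Finset S) (w : X → Fin q) (σ : S → Fin q) : S → Fin q :=
  fun x => if h : x ∈ X then w ⟨x, h⟩ else σ x

lemma overwrite_restrict (X : Finset S) (w : X → Fin q) (σ : S → Fin q) :
    (fun x : X => overwrite X w σ x) = w := by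
  funext x
  simp [overwrite, x.2]

lemma overwrite_of_not_mem (X : Finset S) (w : X → Fin q) (σ : S → Fin q) {x : S} (hx : x ∉ X) :
    overwrite X w σ x = σ x := by
  simp [overwrite, hx]

lemma overwrite_of_mem (X : Finset S) (w : X → Fin q) (σ : S → Fin q) {x : S} (hx : x ∈ X) :
    overwrite X w σ x = w ⟨x, hx⟩ := by
  simp [overwrite, hx]

/-- Sum over the configurations that agree with `σ` off `X`. -/
lemma sum_agree (X : Finset S) (σ : S → Fin q) (f : (S → Fin q) → ℂ) :
    (∑ τ : S → Fin q, if (∀ x, x ∉ X → σ x = τ x) then f τ else 0)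
      = ∑ w : X → Fin q, f (overwrite X w σ) := by
  classical
  rw [← Finset.sum_filter]
  refine Finset.sum_bij' (fun τ _ => fun x : X => τ x) (fun w _ => overwrite X w σ) ?_ ?_ ?_ ?_ ?_
  · intro τ _; exact Finset.mem_univ _
  · intro w _
    simp only [Finset.mem_filter, Finset.mem_univ, true_and]
    intro x hx
    rw [overwrite_of_not_mem X w σ hx]
  · intro τ hτ
    simp only [Finset.mem_filter, Finset.mem_univ, true_and] at hτ
    funext x
    by_cases hx : x ∈ X
    · simp [overwrite, hx]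
    · simp [overwrite, hx, hτ x hx]
  · intro w _
    exact overwrite_restrict X w σ
  · intro τ hτ
    simp only [Finset.mem_filter, Finset.mem_univ, true_and] at hτ
    congr 1
    funext x
    by_cases hx : x ∈ X
    · simp [overwrite, hx]
    · simp [overwrite, hx, hτ x hx]

/-- The action of `liftOp X m` on a vector, expanded. -/
lemma sum_liftOp_mul (X : Finset S) (m : Matrix (X → Fin q) (X → Fin q) ℂ) (σ : S → Fin q)
    (f : (S → Fin q) → ℂ) :
    ∑ τ, liftOp X m σ τ * f τ = ∑ w : X → Fin q, m (fun x => σ x) w * f (overwrite X w σ) := by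
  have := sum_agree X σ (fun τ => m (fun x => σ x) (fun x => τ x) * f τ)
  simp only [overwrite_restrict] at this
  rw [← this]
  refine Finset.sum_congr rfl fun τ _ => ?_
  by_cases h : ∀ x, x ∉ X → σ x = τ x
  · rw [if_pos h, show liftOp X m σ τ = _ from if_pos h]
  · rw [if_neg h, show liftOp X m σ τ = 0 from if_neg h, zero_mul]

lemma mulVec_liftOp (X : Finset S) (m : Matrix (X → Fin q) (X → Fin q) ℂ) (f : (S → Fin q) → ℂ)
    (σ : S → Fin q) :
    (liftOp X m *ᵥ f) σ = ∑ w : X → Fin q, m (fun x => σ x) w * f (overwrite X w σ) := by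
  simpa [Matrix.mulVec, dotProduct] using sum_liftOp_mul X m σ f

lemma liftOp_apply_of_agree (X : Finset S) (m : Matrix (X → Fin q) (X → Fin q) ℂ) (σ τ : S → Fin q)
    (h : ∀ x, x ∉ X → σ x = τ x) : liftOp X m σ τ = m (fun x => σ x) (fun x => τ x) :=
  if_pos h

lemma liftOp_apply_of_not_agree (X : Finset S) (m : Matrix (X → Fin q) (X → Fin q) ℂ)
    (σ τ : S → Fin q) (h : ¬ ∀ x, x ∉ X → σ x = τ x) : liftOp X m σ τ = 0 :=
  if_neg h

lemma liftOp_mul (X : Finset S) (m n : Matrix (X → Fin q) (X → Fin q) ℂ) :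
    liftOp X (m * n) = liftOp X m * liftOp X n := by
  ext σ τ
  rw [Matrix.mul_apply, sum_liftOp_mul X m σ (fun ρ => liftOp X n ρ τ)]
  by_cases h : ∀ x, x ∉ X → σ x = τ x
  · rw [liftOp_apply_of_agree X (m * n) σ τ h, Matrix.mul_apply]
    refine Finset.sum_congr rfl fun w _ => ?_
    rw [liftOp_apply_of_agree X n]
    · rw [overwrite_restrict]
    · intro x hx
      rw [overwrite_of_not_mem X w σ hx]
      exact h x hx
  · rw [liftOp_apply_of_not_agree X (m * n) σ τ h]
    symm
    refine Finset.sum_eq_zero fun w _ => ?_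
    rw [liftOp_apply_of_not_agree X n, mul_zero]
    intro h'
    apply h
    intro x hx
    have := h' x hx
    rwa [overwrite_of_not_mem X w σ hx] at this

lemma liftOp_one (X : Finset S) : liftOp X (1 : Matrix (X → Fin q) (X → Fin q) ℂ) = 1 := by
  ext σ τ
  by_cases h : ∀ x, x ∉ X → σ x = τ x
  · rw [liftOp_apply_of_agree X 1 σ τ h]
    by_cases hστ : σ = τ
    · subst hστ; simp
    · rw [Matrix.one_apply_ne hστ, Matrix.one_apply_ne]
      intro h'
      apply hστ
      funext x
      by_cases hx : x ∈ X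
      · exact congrFun h' ⟨x, hx⟩
      · exact h x hx
  · rw [liftOp_apply_of_not_agree X 1 σ τ h, Matrix.one_apply_ne]
    rintro rfl
    exact h fun _ _ => rfl

lemma liftOp_add (X : Finset S) (m n : Matrix (X → Fin q) (X → Fin q) ℂ) :
    liftOp X (m + n) = liftOp X m + liftOp X n := by
  ext σ τ
  rw [Matrix.add_apply]
  by_cases h : ∀ x, x ∉ X → σ x = τ x
  · rw [liftOp_apply_of_agree X _ σ τ h, liftOp_apply_of_agree X _ σ τ h,
      liftOp_apply_of_agree X _ σ τ h, Matrix.add_apply]
  · rw [liftOp_apply_of_not_agree X _ σ τ h, liftOp_apply_of_not_agree X _ σ τ h,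
      liftOp_apply_of_not_agree X _ σ τ h, add_zero]

lemma liftOp_smul (X : Finset S) (c : ℂ) (m : Matrix (X → Fin q) (X → Fin q) ℂ) :
    liftOp X (c • m) = c • liftOp X m := by
  ext σ τ
  rw [Matrix.smul_apply]
  by_cases h : ∀ x, x ∉ X → σ x = τ x
  · rw [liftOp_apply_of_agree X _ σ τ h, liftOp_apply_of_agree X _ σ τ h, Matrix.smul_apply]
  · rw [liftOp_apply_of_not_agree X _ σ τ h, liftOp_apply_of_not_agree X _ σ τ h, smul_zero]

lemma liftOp_zero (X : Finset S) : liftOp X (0 : Matrix (X → Fin q) (X → Fin q) ℂ) = 0 := by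
  ext σ τ
  rw [Matrix.zero_apply]
  by_cases h : ∀ x, x ∉ X → σ x = τ x
  · rw [liftOp_apply_of_agree X _ σ τ h, Matrix.zero_apply]
  · rw [liftOp_apply_of_not_agree X _ σ τ h]

/-- `liftOp` as an algebra homomorphism. -/
noncomputable def liftAlgHom (X : Finset S) :
    Matrix (X → Fin q) (X → Fin q) ℂ →ₐ[ℂ] Matrix (S → Fin q) (S → Fin q) ℂ :=
  AlgHom.ofLinearMap
    { toFun := liftOp X
      map_add' := liftOp_add X
      map_smul' := fun c m => by simpa using liftOp_smul X c m }
    (liftOp_one X) (liftOp_mul X)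

lemma liftAlgHom_apply (X : Finset S) (m : Matrix (X → Fin q) (X → Fin q) ℂ) :
    liftAlgHom X m = liftOp X m := rfl

/-- An operator acting on `X` also acts on any larger set. -/
lemma exists_liftOp_of_subset {X Y : Finset S} (hXY : X ⊆ Y)
    (m : Matrix (X → Fin q) (X → Fin q) ℂ) :
    ∃ n : Matrix (Y → Fin q) (Y → Fin q) ℂ, liftOp X m = liftOp Y n := by
  classical
  refine ⟨Matrix.of fun w w' =>
    if ∀ x : Y, (x : S) ∉ X → w x = w' x then
      m (fun x => w ⟨x, hXY x.2⟩) (fun x => w' ⟨x, hXY x.2⟩) else 0, ?_⟩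
  ext σ τ
  by_cases h : ∀ x, x ∉ X → σ x = τ x
  · rw [liftOp_apply_of_agree X m σ τ h, liftOp_apply_of_agree Y _ σ τ
      (fun x hx => h x (fun hx' => hx (hXY hx')))]
    have : ∀ x : Y, (x : S) ∉ X → σ x = τ x := fun x hx => h x hx
    exact (if_pos this).symm
  · rw [liftOp_apply_of_not_agree X m σ τ h]
    by_cases h' : ∀ x, x ∉ Y → σ x = τ x
    · rw [liftOp_apply_of_agree Y _ σ τ h']
      have : ¬ ∀ x : Y, (x : S) ∉ X → σ x = τ x := by
        intro h''
        apply h
        intro x hx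
        by_cases hxY : x ∈ Y
        · exact h'' ⟨x, hxY⟩ hx
        · exact h' x hxY
      exact (if_neg this).symm
    · rw [liftOp_apply_of_not_agree Y _ σ τ h']

/-- The explicit entry of a product of operators with disjoint supports. -/
lemma liftOp_mul_liftOp_apply {X Y : Finset S} (hXY : Disjoint X Y)
    (m : Matrix (X → Fin q) (X → Fin q) ℂ) (n : Matrix (Y → Fin q) (Y → Fin q) ℂ)
    (σ τ : S → Fin q) :
    (liftOp X m * liftOp Y n) σ τ =
      if ∀ x, x ∉ X → x ∉ Y → σ x = τ x then
        m (fun x => σ x) (fun x => τ x) * n (fun x => σ x) (fun x => τ x) else 0 := by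
  classical
  rw [Matrix.mul_apply, sum_liftOp_mul X m σ (fun ρ => liftOp Y n ρ τ)]
  have hdisj : ∀ x, x ∈ X → x ∉ Y := fun x hx hy => (Finset.disjoint_left.1 hXY) hx hy
  rw [Finset.sum_eq_single (fun x : X => τ x)]
  · have hres : (fun x : Y => overwrite X (fun x : X => τ x) σ x) = fun x : Y => σ x := by
      funext x
      have : (x : S) ∉ X := fun hx => hdisj x hx x.2
      rw [overwrite_of_not_mem X _ σ this]
    by_cases h : ∀ x, x ∉ X → x ∉ Y → σ x = τ x
    · rw [if_pos h, liftOp_apply_of_agree Y n]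
      · rw [hres]
      · intro x hx
        by_cases hxX : x ∈ X
        · rw [overwrite_of_mem X _ σ hxX]
        · rw [overwrite_of_not_mem X _ σ hxX]
          exact h x hxX hx
    · rw [if_neg h, liftOp_apply_of_not_agree Y n, mul_zero]
      intro h'
      apply h
      intro x hxX hxY
      have := h' x hxY
      rwa [overwrite_of_not_mem X _ σ hxX] at this
  · intro w _ hw
    rw [liftOp_apply_of_not_agree Y n, mul_zero]
    intro h'
    apply hw
    funext x
    have := h' x (hdisj x x.2)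
    rwa [overwrite_of_mem X _ σ x.2] at this
  · intro h
    exact absurd (Finset.mem_univ _) h

/-- Operators with disjoint supports commute. -/
lemma liftOp_commute {X Y : Finset S} (hXY : Disjoint X Y)
    (m : Matrix (X → Fin q) (X → Fin q) ℂ) (n : Matrix (Y → Fin q) (Y → Fin q) ℂ) :
    Commute (liftOp X m) (liftOp Y n) := by
  ext σ τ
  rw [liftOp_mul_liftOp_apply hXY, liftOp_mul_liftOp_apply hXY.symm]
  have : (∀ x, x ∉ X → x ∉ Y → σ x = τ x) ↔ (∀ x, x ∉ Y → x ∉ X → σ x = τ x) :=
    ⟨fun h x hx hy => h x hy hx, fun h x hx hy => h x hy hx⟩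
  by_cases h : ∀ x, x ∉ X → x ∉ Y → σ x = τ x
  · rw [if_pos h, if_pos (this.1 h), mul_comm]
  · rw [if_neg h, if_neg (fun h' => h (this.2 h'))]

end Vale.Agent.P356
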