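import Mathlib

namespace Vale.Agent.P356

open scoped ComplexConjugate ComplexOrder
open Matrix Polynomial

variable {n : Type} [Fintype n] [DecidableEq n]

lemma aeval_diagonal' (v : n → ℂ) (P : ℂ[X]) :
    aeval (diagonal v) P = diagonal fun i => P.eval (v i) := by
  induction P using Polynomial.induction_on with
  | C a =>
    ext i j
    by_cases h : i = j
    · subst h; simp [Matrix.algebraMap_matrix_apply]
    · simp [Matrix.algebraMap_matrix_apply, h]
  | add p q hp hq =>
    rw [map_add, hp, hq, Matrix.diagonal_add]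
    congr 1
    funext i
    simp
  | monomial k a ih =>
    rw [pow_succ, ← mul_assoc, map_mul, ih, aeval_X, Matrix.diagonal_mul_diagonal]
    congr 1
    funext i
    simp [mul_assoc]

/-- A polynomial vanishing at all the eigenvalues of a Hermitian matrix annihilates it. -/
lemma aeval_eq_zero_of_eigenvalues {D : Matrix n n ℂ} (hD : D.IsHermitian) (P : ℂ[X])
    (hP : ∀ i, P.eval (hD.eigenvalues i : ℂ) = 0) : aeval D P = 0 := by
  have h := hD.spectral_theorem
  have h2 : aeval D P = Unitary.conjStarAlgAut ℂ _ hD.eigenvectorUnitary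
      (aeval (diagonal (RCLike.ofReal ∘ hD.eigenvalues)) P) := by
    conv_lhs => rw [h]
    exact Polynomial.aeval_algHom_apply
      (AlgHomClass.toAlgHom (Unitary.conjStarAlgAut ℂ (Matrix n n ℂ) hD.eigenvectorUnitary)) _ P
  rw [h2, aeval_diagonal']
  have : (fun i => P.eval ((RCLike.ofReal ∘ hD.eigenvalues) i)) = fun _ => (0 : ℂ) := by
    funext i
    exact hP i
  rw [this]
  simp

/-- For a Hermitian `D` and a scalar `κ` there is a polynomial `p` with `p(κ) ≠ 0` such that the
range of `p(D)` lies in the `κ`-eigenspace of `D`. -/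
lemma exists_poly_eigenspace {D : Matrix n n ℂ} (hD : D.IsHermitian) (κ : ℂ) :
    ∃ p : ℂ[X], p.eval κ ≠ 0 ∧ D * aeval D p = κ • aeval D p := by
  classical
  set T : Finset ℂ := (Finset.univ.image fun i => (hD.eigenvalues i : ℂ)).erase κ with hT
  refine ⟨∏ μ ∈ T, (X - C μ), ?_, ?_⟩
  · rw [Polynomial.eval_prod, Finset.prod_ne_zero_iff]
    intro μ hμ
    have : μ ≠ κ := Finset.ne_of_mem_erase hμ
    simp [sub_ne_zero, this.symm]
  · have h0 : aeval D ((X - C κ) * ∏ μ ∈ T, (X - C μ)) = 0 := by
      apply aeval_eq_zero_of_eigenvalues hD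
      intro i
      rw [Polynomial.eval_mul]
      by_cases hi : (hD.eigenvalues i : ℂ) = κ
      · simp [hi]
      · have : (hD.eigenvalues i : ℂ) ∈ T := by
          rw [hT, Finset.mem_erase]
          exact ⟨hi, Finset.mem_image.2 ⟨i, Finset.mem_univ _, rfl⟩⟩
        rw [Polynomial.eval_prod, Finset.prod_eq_zero this (by simp), mul_zero]
    rw [map_mul, map_sub, aeval_X, aeval_C] at h0
    have h1 : (algebraMap ℂ (Matrix n n ℂ)) κ = κ • (1 : Matrix n n ℂ) :=
      Algebra.algebraMap_eq_smul_one κ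
    rw [h1, sub_mul, smul_mul_assoc, one_mul, sub_eq_zero] at h0
    exact h0

/-- A polynomial in `D` commutes with whatever commutes with `D`. -/
lemma commute_aeval {D B : Matrix n n ℂ} (h : Commute D B) (p : ℂ[X]) :
    Commute (aeval D p) B := by
  induction p using Polynomial.induction_on with
  | C a =>
    rw [aeval_C]
    exact Algebra.commute_algebraMap_left a B
  | add p q hp hq =>
    rw [map_add]
    exact hp.add_left hq
  | monomial k a ih =>
    rw [pow_succ, ← mul_assoc, map_mul, aeval_X]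
    exact ih.mul_left h

/-- Row eigenvectors: if `v ᵥ* D = c • v` then `v ᵥ* p(D) = p(c) • v`. -/
lemma vecMul_aeval {D : Matrix n n ℂ} {v : n → ℂ} {c : ℂ} (h : v ᵥ* D = c • v) (p : ℂ[X]) :
    v ᵥ* aeval D p = p.eval c • v := by
  induction p using Polynomial.induction_on with
  | C a =>
    rw [aeval_C, eval_C, Algebra.algebraMap_eq_smul_one, Matrix.vecMul_smul, Matrix.vecMul_one]
  | add p q hp hq =>
    rw [map_add, Matrix.vecMul_add, hp, hq, eval_add, add_smul]
  | monomial k a ih =>
    rw [pow_succ, ← mul_assoc, map_mul, aeval_X, ← Matrix.vecMul_vecMul, ih, Matrix.smul_vecMul, h,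
      smul_smul]
    congr 1
    simp [mul_assoc]

/-- The entropy bound `S ≤ log rank` for a positive semidefinite matrix of trace `1`. -/
lemma sum_negMulLog_le_log_rank {ρ : Matrix n n ℂ} (hρ : ρ.PosSemidef) (htr : ρ.trace = 1) :
    ∑ i, Real.negMulLog (hρ.1.eigenvalues i) ≤ Real.log (ρ.rank : ℝ) := by
  classical
  set l := hρ.1.eigenvalues with hl
  have hnn : ∀ i, 0 ≤ l i := hρ.eigenvalues_nonneg
  have hsum : ∑ i, l i = 1 := by
    have := hρ.1.trace_eq_sum_eigenvalues
    rw [htr] at this
    have h2 : ((∑ i, l i : ℝ) : ℂ) = 1 := by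
      push_cast
      simpa [hl] using this.symm
    exact_mod_cast h2
  set Z := Finset.univ.filter fun i => l i ≠ 0 with hZ
  have hcard : (ρ.rank : ℝ) = (Z.card : ℝ) := by
    rw [hρ.1.rank_eq_card_non_zero_eigs, Fintype.card_subtype]
  have hZsum : ∑ i ∈ Z, l i = 1 := by
    rw [← hsum, hZ, Finset.sum_filter]
    refine Finset.sum_congr rfl fun i _ => ?_
    by_cases h : l i = 0 <;> simp [h]
  have hZne : Z.Nonempty := by
    by_contra h
    rw [Finset.not_nonempty_iff_eq_empty] at h
    rw [h, Finset.sum_empty] at hZsum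
    exact zero_ne_one hZsum
  have hn : (0 : ℝ) < Z.card := by exact_mod_cast hZne.card_pos
  have hS : ∑ i, Real.negMulLog (l i) = ∑ i ∈ Z, Real.negMulLog (l i) := by
    rw [hZ, Finset.sum_filter]
    refine Finset.sum_congr rfl fun i _ => ?_
    by_cases h : l i = 0 <;> simp [h]
  rw [hS, hcard]
  have hJ := Real.concaveOn_negMulLog.le_map_sum (t := Z) (w := fun _ => (Z.card : ℝ)⁻¹)
    (p := l) (fun _ _ => by positivity)
    (by rw [Finset.sum_const, nsmul_eq_mul]; field_simp)
    (fun i _ => hnn i)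
  simp only [smul_eq_mul] at hJ
  rw [← Finset.mul_sum, ← Finset.mul_sum, hZsum, mul_one] at hJ
  have h3 : Real.negMulLog ((Z.card : ℝ)⁻¹) = (Z.card : ℝ)⁻¹ * Real.log (Z.card : ℝ) := by
    simp [Real.negMulLog, Real.log_inv]
  rw [h3] at hJ
  exact le_of_mul_le_mul_left hJ (by positivity)

end Vale.Agent.P356
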