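import Vale.Agent.P356.Bipartite
import Vale.Agent.P356.Spectral

namespace Vale.Agent.P356

open scoped ComplexConjugate ComplexOrder
open Matrix Polynomial

set_option linter.unusedSectionVars false

variable {S : Type} [Fintype S] [DecidableEq S] {q : ℕ}

lemma star_dotProduct_self_eq {ι : Type} [Fintype ι] (φ : ι → ℂ) :
    star φ ⬝ᵥ φ = ((∑ i, ‖φ i‖ ^ 2 : ℝ) : ℂ) := by
  simp only [dotProduct, Pi.star_apply, Complex.star_def, Complex.conj_mul']
  push_cast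
  rfl

/-- The spectral gap makes the ground energy simple. -/
lemma eq_smul_of_hasSpectralGap {ι : Type} [Fintype ι] [DecidableEq ι]
    {H : Matrix ι ι ℂ} {Δ E₀ : ℝ} {Ω : ι → ℂ} (hgap : HasSpectralGap H Δ E₀ Ω) (hΔ : 0 < Δ)
    (ψ : ι → ℂ) (hψ : H *ᵥ ψ = (E₀ : ℂ) • ψ) : ψ = (star Ω ⬝ᵥ ψ) • Ω := by
  set c := star Ω ⬝ᵥ ψ with hc
  set φ := ψ - c • Ω with hφ
  have hHφ : H *ᵥ φ = (E₀ : ℂ) • φ := by
    rw [hφ, Matrix.mulVec_sub, Matrix.mulVec_smul, hψ, hgap.eigen, smul_sub, smul_comm]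
  have hΩφ : star Ω ⬝ᵥ φ = 0 := by
    rw [hφ, dotProduct_sub, dotProduct_smul, hgap.unit, ← hc]
    simp
  have hM := hgap.gap.re_dotProduct_nonneg φ
  have hexp : (H - (E₀ : ℂ) • (1 : Matrix ι ι ℂ) -
      (Δ : ℂ) • ((1 : Matrix ι ι ℂ) - Matrix.vecMulVec Ω (star Ω))) *ᵥ φ = -(Δ : ℂ) • φ := by
    rw [Matrix.sub_mulVec, Matrix.sub_mulVec, Matrix.smul_mulVec, Matrix.smul_mulVec,
      Matrix.sub_mulVec, Matrix.one_mulVec, Matrix.vecMulVec_mulVec, hHφ]
    simp only [hΩφ, MulOpposite.op_zero, zero_smul, sub_zero, sub_self, zero_sub, neg_smul]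
  rw [hexp, dotProduct_smul, star_dotProduct_self_eq] at hM
  have hN : (0 : ℝ) ≤ ∑ i, ‖φ i‖ ^ 2 := by positivity
  have hre : RCLike.re (-(Δ : ℂ) • ((∑ i, ‖φ i‖ ^ 2 : ℝ) : ℂ)) = -Δ * ∑ i, ‖φ i‖ ^ 2 := by
    simp only [smul_eq_mul, ← Complex.ofReal_neg, ← Complex.ofReal_mul]
    exact Complex.ofReal_re _
  rw [hre] at hM
  have hz : ∑ i, ‖φ i‖ ^ 2 = 0 := by nlinarith
  have hφ0 : φ = 0 := by
    rw [← dotProduct_star_self_eq_zero, star_dotProduct_self_eq, hz]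
    simp
  exact sub_eq_zero.1 hφ0

/-- **Key step.** If the crossing part `D = liftOp U d` commutes with the bulk parts
`PA = liftOp A pa` and `PB = liftOp Aᶜ pb` and `Ω` spans an eigenspace of `D + PA + PB`, the amplitude
matrix of `Ω` across the cut has rank at most `(q ^ |U ∩ A|)²`. -/
theorem rank_bound_of_decomposition (A U : Finset S)
    (d : Matrix (U → Fin q) (U → Fin q) ℂ) (pa : Matrix (A → Fin q) (A → Fin q) ℂ)
    (pb : Matrix ((Aᶜ : Finset S) → Fin q) ((Aᶜ : Finset S) → Fin q) ℂ)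
    (hDh : (liftOp U d).IsHermitian)
    (hDA : Commute (liftOp U d) (liftOp A pa)) (hDB : Commute (liftOp U d) (liftOp Aᶜ pb))
    (Ω : (S → Fin q) → ℂ) (hΩ : Ω ≠ 0) (E₀ : ℂ)
    (heig : (liftOp U d + liftOp A pa + liftOp Aᶜ pb) *ᵥ Ω = E₀ • Ω)
    (hsimple : ∀ ψ, (liftOp U d + liftOp A pa + liftOp Aᶜ pb) *ᵥ ψ = E₀ • ψ → ∃ c : ℂ, ψ = c • Ω) :
    (ampMatrix Ω A).rank ≤ (q ^ (U ∩ A).card) ^ 2 := by
  classical
  set D := liftOp U d with hD
  set PA := liftOp A pa with hPA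
  set PB := liftOp Aᶜ pb with hPB
  set H := D + PA + PB with hH
  have hAB : Commute PA PB := liftOp_commute disjoint_compl_right pa pb
  -- every summand commutes with `H`
  have hHD : Commute H D := ((Commute.refl D).add_left hDA.symm).add_left hDB.symm
  have hHA : Commute H PA := (hDA.add_left (Commute.refl PA)).add_left hAB.symm
  have hHB : Commute H PB := (hDB.add_left hAB).add_left (Commute.refl PB)
  -- `Ω` is a joint eigenvector
  have eig_of_comm : ∀ B : Matrix (S → Fin q) (S → Fin q) ℂ, Commute H B →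
      ∃ c : ℂ, B *ᵥ Ω = c • Ω := by
    intro B hB
    apply hsimple
    rw [Matrix.mulVec_mulVec, hB.eq, ← Matrix.mulVec_mulVec, heig, Matrix.mulVec_smul]
  obtain ⟨κ, hκ⟩ := eig_of_comm D hHD
  obtain ⟨α, hα⟩ := eig_of_comm PA hHA
  obtain ⟨β, hβ⟩ := eig_of_comm PB hHB
  obtain ⟨σ₀, hσ₀⟩ : ∃ σ, Ω σ ≠ 0 := by
    by_contra h
    exact hΩ (funext fun σ => by_contra fun hσ => h ⟨σ, hσ⟩)
  have hE : κ + α + β = E₀ := by
    have h1 : H *ᵥ Ω = (κ + α + β) • Ω := by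
      rw [hH, Matrix.add_mulVec, Matrix.add_mulVec, hκ, hα, hβ, add_smul, add_smul]
    rw [heig] at h1
    have h2 := congrFun h1 σ₀
    simp only [Pi.smul_apply, smul_eq_mul] at h2
    exact (mul_right_cancel₀ hσ₀ h2).symm
  have hn : star Ω ⬝ᵥ Ω ≠ 0 := fun h => hΩ (dotProduct_star_self_eq_zero.1 h)
  -- `κ` is real, and `star Ω` is a left eigenvector
  have hrow : star Ω ᵥ* D = star κ • star Ω := by
    have h1 : star (D *ᵥ Ω) = star Ω ᵥ* Dᴴ := Matrix.star_mulVec D Ω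
    rw [hDh.eq, hκ, star_smul] at h1
    exact h1.symm
  have hκreal : star κ = κ := by
    have h1 : star Ω ⬝ᵥ (D *ᵥ Ω) = (star Ω ᵥ* D) ⬝ᵥ Ω := Matrix.dotProduct_mulVec _ _ _
    rw [hκ, hrow, dotProduct_smul, smul_dotProduct] at h1
    simp only [smul_eq_mul] at h1
    exact (mul_right_cancel₀ hn h1).symm
  rw [hκreal] at hrow
  -- the product vector
  set s₀ : A → Fin q := fun x => σ₀ x with hs₀
  set t₀ : (Aᶜ : Finset S) → Fin q := fun x => σ₀ x with ht₀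
  have hσ₀' : glue A s₀ t₀ = σ₀ := glue_res A σ₀
  set a : (A → Fin q) → ℂ := fun s => Ω (glue A s t₀) with ha
  set b : ((Aᶜ : Finset S) → Fin q) → ℂ := fun t => ∑ s, Ω (glue A s t) * star (a s) with hb
  have hane : a ≠ 0 := by
    intro h
    have := congrFun h s₀
    simp only [ha, hσ₀', Pi.zero_apply] at this
    exact hσ₀ this
  have hbt₀ : b t₀ = a ⬝ᵥ star a := rfl
  have hbne : b ≠ 0 := by
    intro h
    have := congrFun h t₀
    rw [hbt₀, Pi.zero_apply, dotProduct_self_star_eq_zero] at this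
    exact hane this
  have hpa : pa *ᵥ a = α • a := by
    funext s
    have := congrFun hα (glue A s t₀)
    rw [hPA, mulVec_liftOp_glue_left] at this
    exact this
  have hpb : pb *ᵥ b = β • b := by
    funext t
    have h1 : ∀ s, (pb *ᵥ fun t' => Ω (glue A s t')) t = β * Ω (glue A s t) := by
      intro s
      have := congrFun hβ (glue A s t)
      rw [hPB, mulVec_liftOp_glue_right] at this
      exact this
    simp only [Matrix.mulVec, dotProduct, hb, Finset.mul_sum, Pi.smul_apply, smul_eq_mul] at h1 ⊢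
    rw [Finset.sum_comm]
    refine Finset.sum_congr rfl fun s _ => ?_
    rw [← mul_assoc, ← h1 s, Finset.sum_mul]
    refine Finset.sum_congr rfl fun w _ => ?_
    ring
  set Φ := prodVec A a b with hΦ
  have hPAΦ : PA *ᵥ Φ = α • Φ := by
    rw [hPA, hΦ, mulVec_liftOp_prodVec_left, hpa]
    funext σ
    simp [prodVec, mul_assoc]
  have hPBΦ : PB *ᵥ Φ = β • Φ := by
    rw [hPB, hΦ, mulVec_liftOp_prodVec_right, hpb]
    funext σ
    simp only [prodVec, Pi.smul_apply, smul_eq_mul]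
    ring
  have hoverlap : star Ω ⬝ᵥ Φ ≠ 0 := by
    have h1 : star Ω ⬝ᵥ Φ = b ⬝ᵥ star b := by
      simp only [dotProduct, Pi.star_apply]
      rw [sum_conf A (fun σ => star (Ω σ) * Φ σ), Finset.sum_comm]
      refine Finset.sum_congr rfl fun t _ => ?_
      have hstar : star (b t) = ∑ s, star (Ω (glue A s t)) * a s := by
        simp only [hb, star_sum, star_mul', star_star]
      rw [hstar, Finset.mul_sum]
      refine Finset.sum_congr rfl fun s _ => ?_
      rw [hΦ, prodVec_glue]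
      ring
    rw [h1]
    intro h
    exact hbne (dotProduct_self_star_eq_zero.1 h)
  -- the polynomial in `D`
  obtain ⟨p, hp0, hp⟩ := exists_poly_eigenspace hDh κ
  set G₀ := aeval D p with hG₀
  set Ξ := G₀ *ᵥ Φ with hΞ
  have hG₀A : Commute G₀ PA := commute_aeval hDA p
  have hG₀B : Commute G₀ PB := commute_aeval hDB p
  have hDΞ : D *ᵥ Ξ = κ • Ξ := by
    rw [hΞ, Matrix.mulVec_mulVec, hp, Matrix.smul_mulVec]
  have hPAΞ : PA *ᵥ Ξ = α • Ξ := by
    rw [hΞ, Matrix.mulVec_mulVec, ← hG₀A.eq, ← Matrix.mulVec_mulVec, hPAΦ, Matrix.mulVec_smul]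
  have hPBΞ : PB *ᵥ Ξ = β • Ξ := by
    rw [hΞ, Matrix.mulVec_mulVec, ← hG₀B.eq, ← Matrix.mulVec_mulVec, hPBΦ, Matrix.mulVec_smul]
  have hHΞ : H *ᵥ Ξ = E₀ • Ξ := by
    rw [hH, Matrix.add_mulVec, Matrix.add_mulVec, hDΞ, hPAΞ, hPBΞ, ← add_smul, ← add_smul, hE]
  obtain ⟨c, hc⟩ := hsimple Ξ hHΞ
  have hov2 : star Ω ⬝ᵥ Ξ = p.eval κ * (star Ω ⬝ᵥ Φ) := by
    rw [hΞ, Matrix.dotProduct_mulVec, hG₀, vecMul_aeval hrow p, smul_dotProduct, smul_eq_mul]
  have hcne : c ≠ 0 := by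
    rintro rfl
    rw [zero_smul] at hc
    rw [hc, dotProduct_zero] at hov2
    exact mul_ne_zero hp0 hoverlap hov2.symm
  -- conclusion
  have hΩeq : Ω = liftOp U (c⁻¹ • aeval d p) *ᵥ prodVec A a b := by
    have h1 : G₀ = liftOp U (aeval d p) := by
      rw [hG₀, hD, ← liftAlgHom_apply, ← liftAlgHom_apply]
      exact Polynomial.aeval_algHom_apply (liftAlgHom U) d p
    rw [liftOp_smul, ← h1, Matrix.smul_mulVec, ← hΦ, ← hΞ, hc, smul_smul, inv_mul_cancel₀ hcne,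
      one_smul]
  exact rank_ampMatrix_le U A _ a b Ω hΩeq

end Vale.Agent.P356
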